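import Vale.Agent.P049.Main

open Vale.Agent.PT

/-- For every `d ≥ 3` a deterministic polynomial time Turing machine maps `n` (in unary) to the
adjacency matrix of a simple `d`-regular Ramanujan graph on `n` vertices, for all large `n` with
`d * n` even. -/
theorem Vale.Agent.Results.P049.Ramanujan.result (d : ℕ) (hd : 3 ≤ d) :
    ∃ f : List Unit → List (List Bool), PolyTimeTM f ∧ ∃ n0 : ℕ, ∀ n ≥ n0, Even (d * n) →
      ∃ (G : SimpleGraph (Fin n)) (_ : DecidableRel G.Adj),
        f (List.replicate n ()) = List.ofFn (fun i => List.ofFn fun j => decide (G.Adj i j)) ∧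
        G.IsRegularOfDegree d ∧
        ∀ (μ : ℝ) (x : Fin n → ℝ), x ≠ 0 → ∑ i, x i = 0 →
          Matrix.mulVec (G.adjMatrix ℝ) x = μ • x → |μ| ≤ 2 * Real.sqrt ((d : ℝ) - 1) :=
  Vale.Agent.P049.main d hd
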